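import Vale.Agent.P309.Final

open MeasureTheory ProbabilityTheory Metric Set
open scoped ENNReal RealInnerProductSpace

namespace Vale.Agent.Results.P309.MemorySampleLowerBound

open _root_.P309

/-- **Memory-sample lower bound for noiseless Gaussian linear regression.**

(1) An absolute constant `c₀ > 0` such that for every `d ≥ 8`, every `ε ≤ 2^{-40}`, every memory size
`M` and every horizon `T`, a learner with `M` bits succeeding at accuracy `ε` with probability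
`≥ 2/3` satisfies `c₀ d log(1/ε) ≤ (T + d)(1 + M/d²)`.

(2) For every constant `A > 0` (so in particular for some `c > 0`, as asked) there are `c' > 0`,
`ε₀ > 0`, `d₀` such that for `d ≥ d₀` and `ε ≤ ε₀`, a learner with at most `A d²` bits succeeding at
accuracy `ε` needs `T ≥ c' d log(1/ε)` samples. -/
theorem result :
    (∃ c₀ : ℝ, 0 < c₀ ∧ ∀ d : ℕ, 8 ≤ d → ∀ ε : ℝ, 0 < ε → ε ≤ 1 / 2 ^ 40 →
      ∀ (M T : ℕ) (Ω : Type) [MeasurableSpace Ω] (P : Measure Ω) [IsProbabilityMeasure P]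
        (L : Learner Ω d M), 2 / 3 ≤ successProb L P T ε →
        c₀ * d * Real.log (1 / ε) ≤ (T + d) * (1 + M / (d : ℝ) ^ 2)) ∧
    (∀ A : ℝ, 0 < A → ∃ c' : ℝ, 0 < c' ∧ ∃ ε₀ : ℝ, 0 < ε₀ ∧ ∃ d₀ : ℕ,
      ∀ d : ℕ, d₀ ≤ d → ∀ ε : ℝ, 0 < ε → ε ≤ ε₀ →
      ∀ M T : ℕ, (M : ℝ) ≤ A * (d : ℝ) ^ 2 →
      ∀ (Ω : Type) [MeasurableSpace Ω] (P : Measure Ω) [IsProbabilityMeasure P]
        (L : Learner Ω d M), 2 / 3 ≤ successProb L P T ε →
        c' * d * Real.log (1 / ε) ≤ T) :=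
  ⟨tradeoff, q1⟩

end Vale.Agent.Results.P309.MemorySampleLowerBound
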